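import Vale.Agent.P201.Main

theorem Vale.Agent.Results.P201.Counterexample.result :
    ∃ (K : Type) (_ : Field K) (G : Type) (_ : Group G), (∀ g : G, IsOfFinOrder g → g = 1) ∧
      ∃ α β : MonoidAlgebra K G, α ≠ 0 ∧ β ≠ 0 ∧ α * β = 0 := by
  obtain ⟨G, hG, h⟩ := Vale.Agent.P201.main
  exact ⟨ZMod 2, inferInstance, G, hG, h⟩
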